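import Vale.Agent.Helper16.KTV.Defs3
import Vale.Agent.Helper16.KTV.Chain

/-!
Module C3 of the bipartite switch-chain project (problem P335):
colourings with prescribed (type, colour) counts have property `TV2`
for the three colour classes.
-/

namespace KTV

open Finset

namespace PureC3

section General

/-- Double-sum formula for the sum of squared deviations. -/
theorem sqDev_double {X : Type*} (Ω : Finset X) (f : X → ℝ) :
    2 * (Ω.card : ℝ) * sqDev Ω f = ∑ x ∈ Ω, ∑ y ∈ Ω, (f x - f y) ^ 2 := by
  unfold sqDev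
  rcases Ω.eq_empty_or_nonempty with h | h
  · subst h; simp
  · have hN : (Ω.card : ℝ) ≠ 0 := by exact_mod_cast h.card_pos.ne'
    set m := (∑ y ∈ Ω, f y) / (Ω.card : ℝ) with hm
    have hsum : ∑ x ∈ Ω, (f x - m) = 0 := by
      rw [Finset.sum_sub_distrib, Finset.sum_const, nsmul_eq_mul, hm]
      field_simp
      ring
    have key : ∀ x ∈ Ω, ∑ y ∈ Ω, (f x - f y) ^ 2 =
        (Ω.card : ℝ) * (f x - m) ^ 2 - 2 * (f x - m) * ∑ y ∈ Ω, (f y - m)
          + ∑ y ∈ Ω, (f y - m) ^ 2 := by
      intro x _
      have h1 : ∀ y, (f x - f y) ^ 2 =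
          (f x - m) ^ 2 - 2 * (f x - m) * (f y - m) + (f y - m) ^ 2 := by
        intro y; ring
      simp_rw [h1]
      rw [Finset.sum_add_distrib, Finset.sum_sub_distrib, Finset.sum_const, nsmul_eq_mul,
        Finset.mul_sum]
    rw [Finset.sum_congr rfl key, hsum]
    simp only [mul_zero, sub_zero]
    rw [Finset.sum_add_distrib, Finset.sum_const, nsmul_eq_mul, ← Finset.mul_sum]
    ring

/-- `TV2` follows from the corresponding inequality for every pair of points. -/
theorem TV2_of_pairwise {X Λ κ : Type*} [Fintype κ] (Ω : Finset X) (lab : κ → X → Λ)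
    (h : ∀ G : κ → Λ → ℝ, ∀ x ∈ Ω, ∀ y ∈ Ω,
      (∑ r, (G r (lab r x) - G r (lab r y))) ^ 2
        ≤ 2 * ∑ r, (G r (lab r x) - G r (lab r y)) ^ 2) :
    TV2 Ω lab := by
  intro G
  rcases Ω.eq_empty_or_nonempty with h0 | h0
  · subst h0; simp [sqDev]
  · have hN : (0 : ℝ) < (Ω.card : ℝ) := by exact_mod_cast h0.card_pos
    have e1 := sqDev_double Ω (fun x => ∑ r, G r (lab r x))
    have e2 : ∀ r, 2 * (Ω.card : ℝ) * sqDev Ω (fun x => G r (lab r x))
        = ∑ x ∈ Ω, ∑ y ∈ Ω, (G r (lab r x) - G r (lab r y)) ^ 2 :=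
      fun r => sqDev_double Ω (fun x => G r (lab r x))
    have key : 2 * (Ω.card : ℝ) * sqDev Ω (fun x => ∑ r, G r (lab r x))
        ≤ 2 * (Ω.card : ℝ) * (2 * ∑ r, sqDev Ω (fun x => G r (lab r x))) := by
      have e3 : 2 * (Ω.card : ℝ) * (2 * ∑ r, sqDev Ω (fun x => G r (lab r x)))
          = ∑ x ∈ Ω, ∑ y ∈ Ω, 2 * ∑ r, (G r (lab r x) - G r (lab r y)) ^ 2 := by
        have h1 : 2 * (Ω.card : ℝ) * (2 * ∑ r, sqDev Ω (fun x => G r (lab r x)))
            = 2 * ∑ r, (2 * (Ω.card : ℝ) * sqDev Ω (fun x => G r (lab r x))) := by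
          rw [Finset.mul_sum, Finset.mul_sum, Finset.mul_sum]
          apply Finset.sum_congr rfl
          intro r _; ring
        have h2 : ∑ r, ∑ x ∈ Ω, ∑ y ∈ Ω, (G r (lab r x) - G r (lab r y)) ^ 2
            = ∑ x ∈ Ω, ∑ y ∈ Ω, ∑ r, (G r (lab r x) - G r (lab r y)) ^ 2 := by
          rw [Finset.sum_comm]
          apply Finset.sum_congr rfl
          intro x _
          rw [Finset.sum_comm]
        rw [h1]
        simp_rw [e2]
        rw [h2, Finset.mul_sum]
        apply Finset.sum_congr rfl
        intro x _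
        rw [Finset.mul_sum]
      rw [e1, e3]
      apply Finset.sum_le_sum
      intro x hx
      apply Finset.sum_le_sum
      intro y hy
      have := h G x hx y hy
      rw [← Finset.sum_sub_distrib]
      exact this
    exact le_of_mul_le_mul_left key (by positivity)

end General

section Pure

variable {ι : Type*} [Fintype ι] [DecidableEq ι] {τ : Type*} [Fintype τ] [DecidableEq τ]

/-- Colourings agreeing with `σ₀` off `J`, with prescribed (type, colour) counts on `J`. -/
def OmegaJ (J : Finset ι) (σ₀ : ι → Fin 3) (t : ι → τ) (n : τ → Fin 3 → ℕ) :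
    Finset (ι → Fin 3) :=
  univ.filter fun σ => (∀ j, j ∉ J → σ j = σ₀ j) ∧
    ∀ a r, (J.filter fun j => t j = a ∧ σ j = r).card = n a r

theorem mem_OmegaJ {J : Finset ι} {σ₀ : ι → Fin 3} {t : ι → τ} {n : τ → Fin 3 → ℕ}
    {σ : ι → Fin 3} :
    σ ∈ OmegaJ J σ₀ t n ↔ (∀ j, j ∉ J → σ j = σ₀ j) ∧
      ∀ a r, (J.filter fun j => t j = a ∧ σ j = r).card = n a r := by
  simp [OmegaJ]

theorem swap_mem_of_mem {J : Finset ι} {i j k : ι} (hi : i ∈ J) (hj : j ∈ J) (hk : k ∈ J) :
    Equiv.swap i j k ∈ J := by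
  by_cases h1 : k = i
  · subst h1; simpa using hj
  · by_cases h2 : k = j
    · subst h2; simpa using hi
    · rwa [Equiv.swap_apply_of_ne_of_ne h1 h2]

theorem type_swap {t : ι → τ} {i j : ι} (hij : t i = t j) (k : ι) :
    t (Equiv.swap i j k) = t k := by
  by_cases h1 : k = i
  · subst h1; simp [hij]
  · by_cases h2 : k = j
    · subst h2; simp [hij]
    · rw [Equiv.swap_apply_of_ne_of_ne h1 h2]

theorem swap_mem_OmegaJ {J : Finset ι} {σ₀ : ι → Fin 3} {t : ι → τ} {n : τ → Fin 3 → ℕ}
    {σ : ι → Fin 3} (hσ : σ ∈ OmegaJ J σ₀ t n) {i j : ι} (hi : i ∈ J) (hj : j ∈ J)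
    (hij : t i = t j) : (fun k => σ (Equiv.swap i j k)) ∈ OmegaJ J σ₀ t n := by
  rw [mem_OmegaJ] at hσ ⊢
  refine ⟨?_, ?_⟩
  · intro k hk
    have hki : k ≠ i := fun h => hk (h ▸ hi)
    have hkj : k ≠ j := fun h => hk (h ▸ hj)
    rw [Equiv.swap_apply_of_ne_of_ne hki hkj]
    exact hσ.1 k hk
  · intro a r
    rw [← hσ.2 a r]
    apply Finset.card_bij' (fun k _ => Equiv.swap i j k) (fun k _ => Equiv.swap i j k)
    · intro k hk
      simp only [mem_filter] at hk ⊢
      exact ⟨swap_mem_of_mem hi hj hk.1, by rw [type_swap hij]; exact hk.2.1, hk.2.2⟩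
    · intro k hk
      simp only [mem_filter] at hk ⊢
      refine ⟨swap_mem_of_mem hi hj hk.1, by rw [type_swap hij]; exact hk.2.1, ?_⟩
      rw [Equiv.swap_apply_self]; exact hk.2.2
    · intro k _; simp
    · intro k _; simp

theorem cls_swap {σ : ι → Fin 3} {r : Fin 3} {i j : ι} (hi : σ i ≠ r) (hj : σ j ≠ r) :
    cls r (fun k => σ (Equiv.swap i j k)) = cls r σ := by
  ext k
  simp only [cls, mem_filter, mem_univ, true_and]
  by_cases h1 : k = i
  · subst h1; simp [hi, hj]
  · by_cases h2 : k = j
    · subst h2; simp [hi, hj]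
    · rw [Equiv.swap_apply_of_ne_of_ne h1 h2]

/-- Double counting through the swap of column `j0` with a column of the same type. -/
theorem swap_count {J : Finset ι} {σ₀ : ι → Fin 3} {t : ι → τ} {n : τ → Fin 3 → ℕ} {j0 : ι}
    (hj0 : j0 ∈ J) (F : (ι → Fin 3) → ℝ) {s s' : Fin 3}
    (hF : ∀ σ j, σ j0 = s → σ j = s' → F (fun k => σ (Equiv.swap j0 j k)) = F σ) :
    (n (t j0) s' : ℝ) * ∑ σ ∈ (OmegaJ J σ₀ t n).filter (fun σ => σ j0 = s), F σ =
      (n (t j0) s : ℝ) * ∑ σ ∈ (OmegaJ J σ₀ t n).filter (fun σ => σ j0 = s'), F σ := by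
  have L : ∀ (u u' : Fin 3),
      (n (t j0) u' : ℝ) * ∑ σ ∈ (OmegaJ J σ₀ t n).filter (fun σ => σ j0 = u), F σ
      = ∑ j ∈ J, ∑ σ ∈ OmegaJ J σ₀ t n,
          if (t j = t j0 ∧ σ j0 = u ∧ σ j = u') then F σ else 0 := by
    intro u u'
    rw [Finset.sum_comm, Finset.mul_sum, Finset.sum_filter]
    apply Finset.sum_congr rfl
    intro σ hσ
    by_cases hu : σ j0 = u
    · rw [if_pos hu]
      have h1 : ∑ j ∈ J, (if (t j = t j0 ∧ σ j0 = u ∧ σ j = u') then F σ else 0)
          = ((J.filter fun j => t j = t j0 ∧ σ j = u').card : ℝ) * F σ := by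
        rw [← Finset.sum_filter, Finset.sum_const, nsmul_eq_mul]
        rw [Finset.filter_congr (fun j _ => (by simp [hu] :
          (t j = t j0 ∧ σ j0 = u ∧ σ j = u') ↔ (t j = t j0 ∧ σ j = u')))]
      rw [h1, (mem_OmegaJ.1 hσ).2 (t j0) u']
    · rw [if_neg hu]
      symm
      apply Finset.sum_eq_zero
      intro j _
      rw [if_neg]
      tauto
  rw [L s s', L s' s]
  apply Finset.sum_congr rfl
  intro j hj
  by_cases htj : t j = t j0
  · apply Finset.sum_nbij' (fun σ => fun k => σ (Equiv.swap j0 j k))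
      (fun σ => fun k => σ (Equiv.swap j0 j k))
    · intro σ hσ; exact swap_mem_OmegaJ hσ hj0 hj htj.symm
    · intro σ hσ; exact swap_mem_OmegaJ hσ hj0 hj htj.symm
    · intro σ _; funext k; simp
    · intro σ _; funext k; simp
    · intro σ _
      simp only [Equiv.swap_apply_left, Equiv.swap_apply_right]
      by_cases hc : σ j0 = s ∧ σ j = s'
      · rw [if_pos ⟨htj, hc.1, hc.2⟩, if_pos ⟨htj, hc.2, hc.1⟩, hF σ j hc.1 hc.2]
      · rw [if_neg (by tauto), if_neg (by tauto)]
  · apply Finset.sum_congr rfl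
    intro σ _
    rw [if_neg (by tauto), if_neg (by tauto)]

theorem three_sq (d0 d1 d2 : ℝ) (h : d0 = 0 ∨ d1 = 0 ∨ d2 = 0) :
    (d0 + d1 + d2) ^ 2 ≤ 2 * (d0 ^ 2 + d1 ^ 2 + d2 ^ 2) := by
  rcases h with h | h | h <;> rw [h] <;>
    nlinarith [sq_nonneg (d0 - d1), sq_nonneg (d0 - d2), sq_nonneg (d1 - d2)]

/-- The point inequality: the indicators of the three values of a statistic have `TV2`. -/
theorem TV2_point {X : Type*} (Ω : Finset X) (z : X → Fin 3) :
    TV2 Ω (fun (r : Fin 3) x => decide (z x = r)) := by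
  apply TV2_of_pairwise
  intro G x _ y _
  simp only [Fin.sum_univ_three]
  apply three_sq
  generalize z x = a
  generalize z y = b
  fin_cases a <;> fin_cases b <;> simp

theorem filter_eq_empty_of_count_zero {J : Finset ι} {σ₀ : ι → Fin 3} {t : ι → τ}
    {n : τ → Fin 3 → ℕ} {j0 : ι} (hj0 : j0 ∈ J) {u : Fin 3} (hn : n (t j0) u = 0) :
    (OmegaJ J σ₀ t n).filter (fun σ => σ j0 = u) = ∅ := by
  apply Finset.eq_empty_of_forall_notMem
  intro σ hσ
  rw [mem_filter] at hσ
  have h1 := (mem_OmegaJ.1 hσ.1).2 (t j0) u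
  rw [hn, Finset.card_eq_zero] at h1
  have h2 : j0 ∈ J.filter (fun j => t j = t j0 ∧ σ j = u) := by
    simp [hσ.2, hj0]
  rw [h1] at h2
  exact absurd h2 (Finset.notMem_empty _)

/-- The conditional mean of a function of the colour class `r`, given the colour of
column `j0`, depends only on whether that colour is `r`. -/
theorem cond_mean_const {J : Finset ι} {σ₀ : ι → Fin 3} {t : ι → τ} {n : τ → Fin 3 → ℕ}
    {j0 : ι} (hj0 : j0 ∈ J) (r : Fin 3) (G : Finset ι → ℝ) :
    ∃ H : Bool → ℝ, ∀ z0,
      ∑ σ ∈ (OmegaJ J σ₀ t n).filter (fun σ => σ j0 = z0), G (cls r σ) =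
        (((OmegaJ J σ₀ t n).filter fun σ => σ j0 = z0).card : ℝ) * H (decide (z0 = r)) := by
  set S : Fin 3 → ℝ := fun z =>
    ∑ σ ∈ (OmegaJ J σ₀ t n).filter (fun σ => σ j0 = z), G (cls r σ) with hS
  set c : Fin 3 → ℝ := fun z =>
    (((OmegaJ J σ₀ t n).filter fun σ => σ j0 = z).card : ℝ) with hc
  have hc0 : ∀ z, c z = 0 → S z = 0 := by
    intro z hz
    have hz' : (((OmegaJ J σ₀ t n).filter fun σ => σ j0 = z).card : ℝ) = 0 := hz
    have h1 : ((OmegaJ J σ₀ t n).filter fun σ => σ j0 = z).card = 0 := by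
      exact_mod_cast hz'
    rw [Finset.card_eq_zero] at h1
    simp only [hS, h1, Finset.sum_empty]
  have hcnn : ∀ z, 0 ≤ c z := fun z => Nat.cast_nonneg _
  have K : ∀ s s', s ≠ r → s' ≠ r → c s * S s' = c s' * S s := by
    intro s s' hs hs'
    by_cases hss : s = s'
    · subst hss; rfl
    · have e1 := swap_count (σ₀ := σ₀) (t := t) (n := n) hj0 (fun σ => G (cls r σ))
        (s := s) (s' := s')
        (fun σ j h1 h2 => congrArg G (cls_swap (by rw [h1]; exact hs) (by rw [h2]; exact hs')))
      have e2 := swap_count (σ₀ := σ₀) (t := t) (n := n) hj0 (fun _ => (1 : ℝ))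
        (s := s) (s' := s') (fun _ _ _ _ => rfl)
      simp only [Finset.sum_const, nsmul_eq_mul, mul_one] at e2
      by_cases hn : n (t j0) s = 0
      · have h0 := filter_eq_empty_of_count_zero (σ₀ := σ₀) hj0 hn
        have hcs : c s = 0 := by simp only [hc, h0, Finset.card_empty, Nat.cast_zero]
        rw [hcs, hc0 s hcs]; ring
      · by_cases hn' : n (t j0) s' = 0
        · have h0 := filter_eq_empty_of_count_zero (σ₀ := σ₀) hj0 hn'
          have hcs : c s' = 0 := by simp only [hc, h0, Finset.card_empty, Nat.cast_zero]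
          rw [hcs, hc0 s' hcs]; ring
        · have hne : (n (t j0) s : ℝ) ≠ 0 := by exact_mod_cast hn
          apply mul_left_cancel₀ hne
          simp only [hS, hc]
          linear_combination (-(((OmegaJ J σ₀ t n).filter fun σ => σ j0 = s).card : ℝ)) * e1
            + (∑ σ ∈ (OmegaJ J σ₀ t n).filter (fun σ => σ j0 = s), G (cls r σ)) * e2
  refine ⟨fun b => if b then S r / c r
    else (∑ z ∈ univ.filter (fun z => z ≠ r), S z) / (∑ z ∈ univ.filter (fun z => z ≠ r), c z), ?_⟩
  intro z0
  show S z0 = c z0 * _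
  by_cases hz0 : z0 = r
  · subst hz0
    simp only [decide_true, if_true]
    by_cases h0 : c z0 = 0
    · rw [hc0 z0 h0, h0]; ring
    · field_simp
  · simp only [hz0, decide_false, Bool.false_eq_true, if_false]
    set C := ∑ z ∈ univ.filter (fun z => z ≠ r), c z with hC
    set T := ∑ z ∈ univ.filter (fun z => z ≠ r), S z with hT
    have hmem : z0 ∈ univ.filter (fun z => z ≠ r) := by simp [hz0]
    by_cases hC0 : C = 0
    · have hle : c z0 ≤ C := Finset.single_le_sum (fun z _ => hcnn z) hmem
      have h0 : c z0 = 0 := le_antisymm (hC0 ▸ hle) (hcnn z0)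
      rw [hc0 z0 h0, h0]; ring
    · have key : S z0 * C = c z0 * T := by
        rw [hC, hT, Finset.mul_sum, Finset.mul_sum]
        apply Finset.sum_congr rfl
        intro z hz
        have hzr : z ≠ r := by simpa using hz
        have := K z0 z hz0 hzr
        linarith
      field_simp
      linarith

/-- Colourings with frozen columns off `J` and prescribed counts on `J` have `TV2`. -/
theorem TV2_OmegaJ (t : ι → τ) : ∀ (J : Finset ι) (σ₀ : ι → Fin 3) (n : τ → Fin 3 → ℕ),
    TV2 (OmegaJ J σ₀ t n) cls := by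
  intro J
  induction J using Finset.induction_on with
  | empty =>
    intro σ₀ n
    apply TV2_of_pairwise
    intro G x hx y hy
    have hxy : x = y := by
      funext j
      rw [(mem_OmegaJ.1 hx).1 j (Finset.notMem_empty j),
        (mem_OmegaJ.1 hy).1 j (Finset.notMem_empty j)]
    subst hxy
    simp
  | insert j0 J' hj0 ih =>
    intro σ₀ n
    have hj0' : j0 ∈ insert j0 J' := Finset.mem_insert_self j0 J'
    apply TV2.chain (OmegaJ (insert j0 J') σ₀ t n) cls (fun σ => σ j0)
      (fun r z => decide (z = r))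
    · intro z0
      by_cases hn : n (t j0) z0 = 0
      · rw [filter_eq_empty_of_count_zero hj0' hn]
        apply TV2_of_pairwise
        intro G x hx
        exact absurd hx (Finset.notMem_empty _)
      · have hset : (OmegaJ (insert j0 J') σ₀ t n).filter (fun σ => σ j0 = z0)
            = OmegaJ J' (Function.update σ₀ j0 z0) t
                (fun a r => if a = t j0 ∧ r = z0 then n a r - 1 else n a r) := by
          ext σ
          rw [mem_filter, mem_OmegaJ, mem_OmegaJ]
          constructor
          · rintro ⟨⟨h1, h2⟩, h3⟩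
            refine ⟨?_, ?_⟩
            · intro j hj
              by_cases hjj : j = j0
              · subst hjj; simp [h3]
              · rw [Function.update_of_ne hjj]
                exact h1 j (by simp [hjj, hj])
            · intro a r
              have h4 := h2 a r
              rw [Finset.filter_insert] at h4
              by_cases hP : t j0 = a ∧ σ j0 = r
              · rw [if_pos hP, Finset.card_insert_of_notMem (by simp [hj0])] at h4
                have hcond : a = t j0 ∧ r = z0 := ⟨hP.1.symm, by rw [← hP.2, h3]⟩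
                rw [if_pos hcond]
                omega
              · rw [if_neg hP] at h4
                have hcond : ¬ (a = t j0 ∧ r = z0) := by
                  rintro ⟨e1, e2⟩
                  exact hP ⟨e1.symm, by rw [h3, e2]⟩
                rw [if_neg hcond]
                exact h4
          · rintro ⟨h1, h2⟩
            have h3 : σ j0 = z0 := by
              have h5 := h1 j0 hj0
              simpa using h5
            refine ⟨⟨?_, ?_⟩, h3⟩
            · intro j hj
              have hjj : j ≠ j0 := fun h => hj (by simp [h])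
              have hjJ : j ∉ J' := fun h => hj (by simp [h])
              have h5 := h1 j hjJ
              rwa [Function.update_of_ne hjj] at h5
            · intro a r
              have h4 := h2 a r
              rw [Finset.filter_insert]
              by_cases hP : t j0 = a ∧ σ j0 = r
              · rw [if_pos hP, Finset.card_insert_of_notMem (by simp [hj0])]
                have hcond : a = t j0 ∧ r = z0 := ⟨hP.1.symm, by rw [← hP.2, h3]⟩
                rw [if_pos hcond] at h4
                have hpos : 0 < n a r := by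
                  rw [hcond.1, hcond.2]
                  omega
                omega
              · rw [if_neg hP]
                have hcond : ¬ (a = t j0 ∧ r = z0) := by
                  rintro ⟨e1, e2⟩
                  exact hP ⟨e1.symm, by rw [h3, e2]⟩
                rw [if_neg hcond] at h4
                exact h4
        rw [hset]
        exact ih _ _
    · exact TV2_point _ _
    · intro r G
      exact cond_mean_const hj0' r G

end Pure

end PureC3

section

variable {ι : Type*} [Fintype ι] [DecidableEq ι] {τ : Type*} [Fintype τ] [DecidableEq τ]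

open PureC3 in
/-- (C3) Pure-product systems have `TV2` for the three colour classes. -/
theorem tv2_pure (t : ι → τ) (n : τ → Fin 3 → ℕ) : TV2 (OmegaPP t n) cls := by
  have h := TV2_OmegaJ t (univ : Finset ι) (fun _ => 0) n
  have e : OmegaPP t n = OmegaJ univ (fun _ => 0) t n := by
    ext σ
    simp [OmegaPP, OmegaJ]
  rw [e]
  exact h

end

end KTV
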