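import Vale.Agent.Helper16.KTV.Defs3
import Vale.Agent.Helper16.KTV.Chain
import Vale.Agent.Helper19.KTV.Pure
import Vale.Agent.Helper4.KTV.Count
import Vale.Agent.Helper6.KTV.ThreeSite

/-!
Module C4 of the bipartite switch-chain project (problem P335):
three-row systems, seen as colourings of positive and negative columns,
have property `TV2` for the three colour classes.

The proof is the chain rule for `TV2` along the statistic `nu` (the number of
negative columns of each colour): the fibres are pure-product systems, and the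
law of `nu` is a product of log-concave weights on a simplex.
-/

namespace KTV

open Finset

namespace ColC4

variable {ι : Type*} [Fintype ι] [DecidableEq ι]

/-- Number of negative columns with colour `r`. -/
def nu (t : ι → Bool) (σ : ι → Fin 3) (r : Fin 3) : ℕ :=
  (univ.filter fun j => t j = false ∧ σ j = r).card

/-- Number of positive columns with colour `r`. -/
def pos (t : ι → Bool) (σ : ι → Fin 3) (r : Fin 3) : ℕ :=
  (univ.filter fun j => t j = true ∧ σ j = r).card

/-- The (type, colour) counts of the fibre over the value `ν0` of `nu`. -/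
def nfib (δ : Fin 3 → ℤ) (ν0 : Fin 3 → ℕ) (a : Bool) (r : Fin 3) : ℕ :=
  if a = true then ((ν0 r : ℤ) + δ r).toNat else ν0 r

theorem mem_OmegaCol {t : ι → Bool} {δ : Fin 3 → ℤ} {σ : ι → Fin 3} :
    σ ∈ OmegaCol t δ ↔ ∀ r, (pos t σ r : ℤ) - (nu t σ r : ℤ) = δ r := by
  simp [OmegaCol, pos, nu]

theorem mem_OmegaPP {t : ι → Bool} {n : Bool → Fin 3 → ℕ} {σ : ι → Fin 3} :
    σ ∈ OmegaPP t n ↔ (∀ r, pos t σ r = n true r) ∧ (∀ r, nu t σ r = n false r) := by
  simp only [OmegaPP, Finset.mem_filter, Finset.mem_univ, true_and, pos, nu]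
  constructor
  · intro h
    exact ⟨fun r => h true r, fun r => h false r⟩
  · rintro ⟨h1, h2⟩ a r
    cases a
    · exact h2 r
    · exact h1 r

theorem fibre_eq (t : ι → Bool) (δ : Fin 3 → ℤ) (ν0 : Fin 3 → ℕ)
    (h : ∀ r, 0 ≤ (ν0 r : ℤ) + δ r) :
    (OmegaCol t δ).filter (fun σ => nu t σ = ν0) = OmegaPP t (nfib δ ν0) := by
  ext σ
  rw [Finset.mem_filter, mem_OmegaCol, mem_OmegaPP]
  constructor
  · rintro ⟨h1, h2⟩
    refine ⟨fun r => ?_, fun r => ?_⟩
    · have h3 := h1 r
      have h4 := congrFun h2 r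
      have h5 := h r
      simp only [nfib, if_true]
      omega
    · have h4 := congrFun h2 r
      simp only [nfib]
      simpa using h4
  · rintro ⟨h1, h2⟩
    have hν : nu t σ = ν0 := funext fun r => by
      have := h2 r
      simpa [nfib] using this
    refine ⟨fun r => ?_, hν⟩
    have h3 := h1 r
    have h4 := congrFun hν r
    have h5 := h r
    simp only [nfib, if_true] at h3
    omega

theorem fibre_empty (t : ι → Bool) (δ : Fin 3 → ℤ) (ν0 : Fin 3 → ℕ)
    (h : ¬ ∀ r, 0 ≤ (ν0 r : ℤ) + δ r) :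
    (OmegaCol t δ).filter (fun σ => nu t σ = ν0) = ∅ := by
  rw [Finset.eq_empty_iff_forall_notMem]
  intro σ hσ
  rw [Finset.mem_filter, mem_OmegaCol] at hσ
  apply h
  intro r
  have h1 := hσ.1 r
  have h2 := congrFun hσ.2 r
  omega

theorem TV2_empty {X Λ κ : Type*} [Fintype κ] (lab : κ → X → Λ) :
    TV2 (∅ : Finset X) lab := by
  intro G
  simp [sqDev]

/-- Hypothesis `hc` of the chain rule: the conditional mean of a function of the
colour class `r` given `nu` depends on `nu r` only. -/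
theorem hc_col (t : ι → Bool) (δ : Fin 3 → ℤ) (r : Fin 3) (G : Finset ι → ℝ) :
    ∃ H : ℕ → ℝ, ∀ z0 : Fin 3 → ℕ,
      ∑ σ ∈ (OmegaCol t δ).filter (fun σ => nu t σ = z0), G (cls r σ) =
        (((OmegaCol t δ).filter fun σ => nu t σ = z0).card : ℝ) * H (z0 r) := by
  refine ⟨fun k => (∑ A ∈ typeSets t
      (fun a => if a = true then ((k : ℤ) + δ r).toNat else k), G A) /
      ((typeSets t (fun a => if a = true then ((k : ℤ) + δ r).toNat else k)).card : ℝ),
    fun z0 => ?_⟩
  by_cases h : ∀ r, 0 ≤ (z0 r : ℤ) + δ r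
  · rw [fibre_eq t δ z0 h]
    exact pp_sum_cls t (nfib δ z0) r G
  · rw [fibre_empty t δ z0 h]
    simp

omit [DecidableEq ι] in
/-- The colours partition the columns of a given type. -/
theorem sum_colour_count (t : ι → Bool) (a : Bool) (σ : ι → Fin 3) :
    ∑ r, (univ.filter fun j => t j = a ∧ σ j = r).card =
      (univ.filter fun j => t j = a).card := by
  have h := Finset.card_eq_sum_card_fiberwise (s := univ.filter fun j => t j = a)
    (t := (univ : Finset (Fin 3))) (f := σ) (fun _ _ => Finset.mem_univ _)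
  rw [h]
  refine Finset.sum_congr rfl fun r _ => ?_
  congr 1
  ext j
  simp

omit [DecidableEq ι] in
theorem sum_nu (t : ι → Bool) (σ : ι → Fin 3) :
    ∑ r, nu t σ r = (univ.filter fun j => t j = false).card :=
  sum_colour_count t false σ

omit [DecidableEq ι] in
theorem sum_pos (t : ι → Bool) (σ : ι → Fin 3) :
    ∑ r, pos t σ r = (univ.filter fun j => t j = true).card :=
  sum_colour_count t true σ

/-- The weights of the law of `nu`. -/
noncomputable def mu (δ : Fin 3 → ℤ) (r : Fin 3) (k : ℕ) : ℝ :=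
  if 0 ≤ (k : ℤ) + δ r then
    ((k.factorial : ℝ) * ((((k : ℤ) + δ r).toNat).factorial : ℝ))⁻¹ else 0

theorem mu_nonneg (δ : Fin 3 → ℤ) (r : Fin 3) (k : ℕ) : 0 ≤ mu δ r k := by
  unfold mu
  split_ifs
  · positivity
  · exact le_refl _

theorem mu_pos_iff (δ : Fin 3 → ℤ) (r : Fin 3) (k : ℕ) :
    0 < mu δ r k ↔ 0 ≤ (k : ℤ) + δ r := by
  unfold mu
  split_ifs with h
  · simp only [h, iff_true]
    positivity
  · simp [h]

theorem mu_interval (δ : Fin 3 → ℤ) (r : Fin 3) (i j k : ℕ) (hij : i ≤ j) (_hjk : j ≤ k)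
    (hi : 0 < mu δ r i) (_hk : 0 < mu δ r k) : 0 < mu δ r j := by
  rw [mu_pos_iff] at hi ⊢
  omega

theorem mu_lc (δ : Fin 3 → ℤ) (r : Fin 3) (k : ℕ) :
    mu δ r k * mu δ r (k + 2) ≤ mu δ r (k + 1) ^ 2 := by
  by_cases h : 0 ≤ (k : ℤ) + δ r
  · have h1 : 0 ≤ ((k + 1 : ℕ) : ℤ) + δ r := by push_cast; omega
    have h2 : 0 ≤ ((k + 2 : ℕ) : ℤ) + δ r := by push_cast; omega
    obtain ⟨m, hm⟩ : ∃ m : ℕ, (k : ℤ) + δ r = m := ⟨_, (Int.toNat_of_nonneg h).symm⟩
    have e0 : ((k : ℤ) + δ r).toNat = m := by omega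
    have e1 : (((k + 1 : ℕ) : ℤ) + δ r).toNat = m + 1 := by push_cast; omega
    have e2 : (((k + 2 : ℕ) : ℤ) + δ r).toNat = m + 2 := by push_cast; omega
    unfold mu
    rw [if_pos h, if_pos h1, if_pos h2, e0, e1, e2]
    have hk2 : (k + 2).factorial = (k + 2) * ((k + 1) * k.factorial) := by
      rw [Nat.factorial_succ, Nat.factorial_succ]
    have hk1 : (k + 1).factorial = (k + 1) * k.factorial := Nat.factorial_succ k
    have hm2 : (m + 2).factorial = (m + 2) * ((m + 1) * m.factorial) := by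
      rw [Nat.factorial_succ, Nat.factorial_succ]
    have hm1 : (m + 1).factorial = (m + 1) * m.factorial := Nat.factorial_succ m
    rw [hk2, hk1, hm2, hm1]
    push_cast
    have ha : (0 : ℝ) < (k.factorial : ℝ) := by exact_mod_cast Nat.factorial_pos k
    have hb : (0 : ℝ) < (m.factorial : ℝ) := by exact_mod_cast Nat.factorial_pos m
    have hx : (0 : ℝ) ≤ (k : ℝ) := Nat.cast_nonneg k
    have hy : (0 : ℝ) ≤ (m : ℝ) := Nat.cast_nonneg m
    set a : ℝ := (k.factorial : ℝ)
    set b : ℝ := (m.factorial : ℝ)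
    set x : ℝ := (k : ℝ)
    set y : ℝ := (m : ℝ)
    rw [← mul_inv, inv_pow]
    apply inv_anti₀ (by positivity)
    have hdiff : a * b * ((x + 2) * ((x + 1) * a) * ((y + 2) * ((y + 1) * b)))
        - ((x + 1) * a * ((y + 1) * b)) ^ 2
        = a ^ 2 * b ^ 2 * (x + 1) * (y + 1) * (x + y + 3) := by ring
    have hpos : 0 ≤ a ^ 2 * b ^ 2 * (x + 1) * (y + 1) * (x + y + 3) := by positivity
    linarith
  · have : mu δ r k = 0 := by
      unfold mu
      rw [if_neg h]
    rw [this, zero_mul]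
    positivity

/-- Transfer of `sqDev` along a statistic whose fibres have sizes proportional to `w`. -/
theorem sqDev_pushforward {X Z : Type*} [DecidableEq Z] (Ω : Finset X) (z : X → Z)
    (T : Finset Z) (w : Z → ℝ) (C : ℝ) (hmaps : ∀ x ∈ Ω, z x ∈ T)
    (hcard : ∀ z0 ∈ T, ((Ω.filter fun x => z x = z0).card : ℝ) = C * w z0) (Φ : Z → ℝ) :
    (Ω.card : ℝ) * sqDev Ω (fun x => Φ (z x)) =
      C ^ 2 * ((∑ ν ∈ T, w ν) * (∑ ν ∈ T, w ν * Φ ν ^ 2) - (∑ ν ∈ T, w ν * Φ ν) ^ 2) := by
  have key : ∀ Ψ : Z → ℝ, ∑ x ∈ Ω, Ψ (z x) = C * ∑ ν ∈ T, w ν * Ψ ν := by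
    intro Ψ
    rw [← Finset.sum_fiberwise_of_maps_to hmaps, Finset.mul_sum]
    refine Finset.sum_congr rfl fun z0 hz0 => ?_
    have hconst : ∀ x ∈ Ω.filter (fun x => z x = z0), Ψ (z x) = Ψ z0 := fun x hx => by
      rw [(Finset.mem_filter.mp hx).2]
    rw [Finset.sum_congr rfl hconst, Finset.sum_const, nsmul_eq_mul, hcard z0 hz0]
    ring
  have hcardΩ : (Ω.card : ℝ) = C * ∑ ν ∈ T, w ν := by
    have h1 := key (fun _ => 1)
    simpa using h1
  have h2 : ∑ x ∈ Ω, Φ (z x) ^ 2 = C * ∑ ν ∈ T, w ν * Φ ν ^ 2 := key (fun ν => Φ ν ^ 2)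
  have h3 : ∑ x ∈ Ω, Φ (z x) = C * ∑ ν ∈ T, w ν * Φ ν := key Φ
  rw [sqDev_eq]
  rcases Ω.eq_empty_or_nonempty with he | hne
  · subst he
    simp only [Finset.card_empty, Nat.cast_zero, zero_mul] at hcardΩ ⊢
    simp only [Finset.sum_empty] at h2 h3
    have e : C ^ 2 * ((∑ ν ∈ T, w ν) * (∑ ν ∈ T, w ν * Φ ν ^ 2) - (∑ ν ∈ T, w ν * Φ ν) ^ 2)
        = (C * ∑ ν ∈ T, w ν) * (C * ∑ ν ∈ T, w ν * Φ ν ^ 2)
          - (C * ∑ ν ∈ T, w ν * Φ ν) ^ 2 := by ring
    rw [e, ← hcardΩ, ← h3]
    ring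
  · have hN : (Ω.card : ℝ) ≠ 0 := by exact_mod_cast hne.card_pos.ne'
    rw [mul_sub, mul_div_cancel₀ _ hN, h2, h3, hcardΩ]
    ring

theorem nu_mem (t : ι → Bool) (σ : ι → Fin 3) :
    nu t σ ∈ Finset.Nat.antidiagonalTuple 3 (univ.filter fun j => t j = false).card := by
  rw [Finset.Nat.mem_antidiagonalTuple]
  exact sum_nu t σ

/-- Size of the fibres of `nu`: a constant times the product of the weights. -/
theorem card_fibre (t : ι → Bool) (δ : Fin 3 → ℤ) (hne : (OmegaCol t δ).Nonempty)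
    (ν0 : Fin 3 → ℕ)
    (hν0 : ν0 ∈ Finset.Nat.antidiagonalTuple 3 (univ.filter fun j => t j = false).card) :
    (((OmegaCol t δ).filter fun σ => nu t σ = ν0).card : ℝ) =
      (((univ.filter fun j => t j = false).card.factorial : ℝ) *
        ((univ.filter fun j => t j = true).card.factorial : ℝ)) * ∏ r, mu δ r (ν0 r) := by
  by_cases h : ∀ r, 0 ≤ (ν0 r : ℤ) + δ r
  · rw [fibre_eq t δ ν0 h]
    obtain ⟨σ, hσ⟩ := hne
    rw [mem_OmegaCol] at hσ
    have hsν := sum_nu t σ
    have hsp := sum_pos t σ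
    rw [Fin.sum_univ_three] at hsν hsp
    rw [Finset.Nat.mem_antidiagonalTuple, Fin.sum_univ_three] at hν0
    have hcons : ∀ a, ∑ r, nfib δ ν0 a r = (univ.filter fun j => t j = a).card := by
      intro a
      cases a
      · simp only [nfib, Fin.sum_univ_three]
        simpa using hν0
      · simp only [nfib, if_true, Fin.sum_univ_three]
        have h0 := h 0
        have h1 := h 1
        have h2 := h 2
        have g0 := hσ 0
        have g1 := hσ 1
        have g2 := hσ 2
        omega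
    have hc := pp_card t (nfib δ ν0) hcons
    rw [Fintype.prod_bool, Fintype.prod_bool] at hc
    have hcR : ((OmegaPP t (nfib δ ν0)).card : ℝ) *
        ((∏ r, ((nfib δ ν0 true r).factorial : ℝ)) * ∏ r, ((nfib δ ν0 false r).factorial : ℝ))
        = ((univ.filter fun j => t j = true).card.factorial : ℝ) *
          ((univ.filter fun j => t j = false).card.factorial : ℝ) := by
      exact_mod_cast hc
    have hA : (0 : ℝ) < ∏ r, ((nfib δ ν0 true r).factorial : ℝ) :=
      Finset.prod_pos fun r _ => by exact_mod_cast Nat.factorial_pos _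
    have hB : (0 : ℝ) < ∏ r, ((nfib δ ν0 false r).factorial : ℝ) :=
      Finset.prod_pos fun r _ => by exact_mod_cast Nat.factorial_pos _
    have hmu : ∏ r, mu δ r (ν0 r) =
        ((∏ r, ((nfib δ ν0 true r).factorial : ℝ)) *
          ∏ r, ((nfib δ ν0 false r).factorial : ℝ))⁻¹ := by
      rw [← Finset.prod_mul_distrib, ← Finset.prod_inv_distrib]
      refine Finset.prod_congr rfl fun r _ => ?_
      unfold mu
      rw [if_pos (h r)]
      simp only [nfib, if_true]
      rw [mul_comm]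
      rfl
    rw [hmu]
    field_simp
    linarith
  · rw [fibre_empty t δ ν0 h]
    push Not at h
    obtain ⟨r, hr⟩ := h
    have : mu δ r (ν0 r) = 0 := by
      unfold mu
      rw [if_neg (not_le.mpr hr)]
    rw [Finset.prod_eq_zero (Finset.mem_univ r) this]
    simp

/-- Hypothesis `hb` of the chain rule: the statistic `nu` has `TV2`. -/
theorem hb_col (t : ι → Bool) (δ : Fin 3 → ℤ) :
    TV2 (OmegaCol t δ) (fun r σ => nu t σ r) := by
  intro H
  rcases (OmegaCol t δ).eq_empty_or_nonempty with he | hne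
  · rw [he]
    simp [sqDev]
  have hcpos : (0 : ℝ) < ((OmegaCol t δ).card : ℝ) := by exact_mod_cast hne.card_pos
  have hpush := sqDev_pushforward (OmegaCol t δ) (nu t)
    (Finset.Nat.antidiagonalTuple 3 (univ.filter fun j => t j = false).card)
    (fun ν => ∏ r, mu δ r (ν r))
    (((univ.filter fun j => t j = false).card.factorial : ℝ) *
        ((univ.filter fun j => t j = true).card.factorial : ℝ))
    (fun σ _ => nu_mem t σ) (fun ν0 hν0 => card_fibre t δ hne ν0 hν0)
  have hm := macro_lemma (mu δ) (mu_nonneg δ) (mu_lc δ) (mu_interval δ)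
    (univ.filter fun j => t j = false).card H
  simp only at hm
  have h1 := hpush (fun ν => ∑ r, H r (ν r))
  have h2 : ∀ r, _ := fun r => hpush (fun ν => H r (ν r))
  have hmul : ((OmegaCol t δ).card : ℝ) * sqDev (OmegaCol t δ) (fun σ => ∑ r, H r (nu t σ r))
      ≤ ((OmegaCol t δ).card : ℝ) *
        (2 * ∑ r, sqDev (OmegaCol t δ) (fun σ => H r (nu t σ r))) := by
    rw [h1]
    have e : ((OmegaCol t δ).card : ℝ) *
        (2 * ∑ r, sqDev (OmegaCol t δ) (fun σ => H r (nu t σ r)))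
        = 2 * ∑ r, ((OmegaCol t δ).card : ℝ) * sqDev (OmegaCol t δ) (fun σ => H r (nu t σ r)) := by
      rw [Finset.mul_sum, Finset.mul_sum, Finset.mul_sum]
      refine Finset.sum_congr rfl fun r _ => ?_
      ring
    rw [e, Finset.sum_congr rfl fun r _ => h2 r, ← Finset.mul_sum, ← mul_assoc,
      mul_comm (2 : ℝ), mul_assoc]
    exact mul_le_mul_of_nonneg_left hm (sq_nonneg _)
  exact le_of_mul_le_mul_left hmul hcpos

end ColC4

variable {ι : Type*} [Fintype ι] [DecidableEq ι]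

/-- Three-row systems have property `TV2` for the three colour classes. -/
theorem tv2_col (t : ι → Bool) (δ : Fin 3 → ℤ) : TV2 (OmegaCol t δ) cls := by
  refine TV2.chain (OmegaCol t δ) cls (ColC4.nu t) (fun r z0 => z0 r) ?_
    (ColC4.hb_col t δ) (ColC4.hc_col t δ)
  intro z0
  by_cases h : ∀ r, 0 ≤ (z0 r : ℤ) + δ r
  · rw [ColC4.fibre_eq t δ z0 h]
    exact tv2_pure t _
  · rw [ColC4.fibre_empty t δ z0 h]
    exact ColC4.TV2_empty _

end KTV
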