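import Vale.Agent.Helper4.KTV.Caputo

/-!
# P335, general graphs: the squaring algebra without commutation

Abstract form of the step `L^2 ≥ 2 L` for a family of symmetric idempotent matrices `Q i j`
indexed by unordered pairs of an index type: the triangle inequality for every three indices
handles the pairs of pairs sharing one index, and two families of real numbers `qb`, `c`
(block terms and charges) with the per-pair bound `hA` and the per-edge bound `hB` handle the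
disjoint pairs of pairs.
-/

set_option linter.unusedSimpArgs false
set_option linter.unusedSectionVars false

namespace Vale.Agent.Helper19.GenCaputo

open Finset Matrix

section Sums

variable {ι : Type*} [Fintype ι] [DecidableEq ι]

/-- three pairwise distinct indices -/
def D3 (a b c : ι) : Prop := a ≠ b ∧ a ≠ c ∧ b ≠ c

/-- four pairwise distinct indices -/
def D4 (a b c d : ι) : Prop := a ≠ b ∧ a ≠ c ∧ a ≠ d ∧ b ≠ c ∧ b ≠ d ∧ c ≠ d

instance (a b c : ι) : Decidable (D3 a b c) :=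
  inferInstanceAs (Decidable (a ≠ b ∧ a ≠ c ∧ b ≠ c))
instance (a b c d : ι) : Decidable (D4 a b c d) :=
  inferInstanceAs (Decidable (a ≠ b ∧ a ≠ c ∧ a ≠ d ∧ b ≠ c ∧ b ≠ d ∧ c ≠ d))

theorem split_pt (i j : ι) (hij : i ≠ j) (g : ι → ι → ℝ) (k l : ι) :
    (if k ≠ l then g k l else 0)
      = (if k = i then (if l = j then g i j else 0) else 0)
        + (if k = j then (if l = i then g j i else 0) else 0)
        + (if k = i then (if D3 i j l then g i l else 0) else 0)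
        + (if k = j then (if D3 i j l then g j l else 0) else 0)
        + (if l = i then (if D3 i j k then g k i else 0) else 0)
        + (if l = j then (if D3 i j k then g k j else 0) else 0)
        + (if D4 i j k l then g k l else 0) := by
  unfold D3 D4
  by_cases h1 : k = i
  · subst h1
    by_cases h4 : l = j
    · subst h4
      simp [hij, Ne.symm hij]
    · by_cases h3 : l = k
      · subst h3
        simp [hij, Ne.symm hij]
      · simp [hij, Ne.symm hij, h3, h4, Ne.symm h3, Ne.symm h4]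
  · by_cases h2 : k = j
    · subst h2
      by_cases h3 : l = i
      · subst h3
        simp [hij, Ne.symm hij]
      · by_cases h4 : l = k
        · subst h4
          simp [hij, Ne.symm hij]
        · simp [hij, Ne.symm hij, h3, h4, Ne.symm h3, Ne.symm h4]
    · by_cases h3 : l = i
      · subst h3
        simp [hij, Ne.symm hij, h1, h2, Ne.symm h1, Ne.symm h2]
      · by_cases h4 : l = j
        · subst h4
          simp [hij, Ne.symm hij, h1, h2, Ne.symm h1, Ne.symm h2, h3, Ne.symm h3]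
        · by_cases h5 : k = l
          · subst h5
            simp [hij, Ne.symm hij, h1, h2, Ne.symm h1, Ne.symm h2]
          · simp [hij, Ne.symm hij, h1, h2, Ne.symm h1, Ne.symm h2, h3, h4, Ne.symm h3,
              Ne.symm h4, h5, Ne.symm h5]

theorem split_inner (i j : ι) (hij : i ≠ j) (g : ι → ι → ℝ) :
    ∑ k, ∑ l, (if k ≠ l then g k l else 0)
      = g i j + g j i + ∑ l, (if D3 i j l then g i l + g j l + g l i + g l j else 0)
        + ∑ k, ∑ l, (if D4 i j k l then g k l else 0) := by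
  simp only [split_pt i j hij g, Finset.sum_add_distrib]
  have e1 : ∑ k, ∑ l, (if k = i then (if l = j then g i j else 0) else 0) = g i j := by
    simp
  have e2 : ∑ k, ∑ l, (if k = j then (if l = i then g j i else 0) else 0) = g j i := by
    simp
  have e3 : ∑ k, ∑ l, (if k = i then (if D3 i j l then g i l else 0) else 0)
      = ∑ l, (if D3 i j l then g i l else 0) := by
    rw [Finset.sum_comm]
    simp
  have e4 : ∑ k, ∑ l, (if k = j then (if D3 i j l then g j l else 0) else 0)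
      = ∑ l, (if D3 i j l then g j l else 0) := by
    rw [Finset.sum_comm]
    simp
  have e5 : ∑ k, ∑ l, (if l = i then (if D3 i j k then g k i else 0) else 0)
      = ∑ l, (if D3 i j l then g l i else 0) := by
    simp
  have e6 : ∑ k, ∑ l, (if l = j then (if D3 i j k then g k j else 0) else 0)
      = ∑ l, (if D3 i j l then g l j else 0) := by
    simp
  have e7 : ∑ l, (if D3 i j l then g i l + g j l + g l i + g l j else 0)
      = ∑ l, (if D3 i j l then g i l else 0) + ∑ l, (if D3 i j l then g j l else 0)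
        + ∑ l, (if D3 i j l then g l i else 0) + ∑ l, (if D3 i j l then g l j else 0) := by
    rw [← Finset.sum_add_distrib, ← Finset.sum_add_distrib, ← Finset.sum_add_distrib]
    refine Finset.sum_congr rfl (fun l _ => ?_)
    split_ifs <;> simp
  rw [e1, e2, e3, e4, e5, e6, e7]
  ring

theorem D3_swap {a b c : ι} : D3 b a c ↔ D3 a b c := by
  unfold D3
  constructor <;> rintro ⟨h1, h2, h3⟩ <;> exact ⟨h1.symm, h3, h2⟩

theorem D3_cyc {a b c : ι} : D3 b c a ↔ D3 a b c := by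
  unfold D3
  constructor
  · rintro ⟨h1, h2, h3⟩
    exact ⟨h2.symm, h3.symm, h1⟩
  · rintro ⟨h1, h2, h3⟩
    exact ⟨h3, h1.symm, h2.symm⟩

theorem D4_swap {a b c d : ι} : D4 c d a b ↔ D4 a b c d := by
  unfold D4
  constructor
  · rintro ⟨h1, h2, h3, h4, h5, h6⟩
    exact ⟨h6, h2.symm, h4.symm, h3.symm, h5.symm, h1⟩
  · rintro ⟨h1, h2, h3, h4, h5, h6⟩
    exact ⟨h6, h2.symm, h4.symm, h3.symm, h5.symm, h1⟩

theorem D4_ne {a b c d : ι} (h : D4 a b c d) : a ≠ b := h.1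

theorem D4_of_eq (a c d : ι) : ¬ D4 a a c d := fun h => h.1 rfl

theorem D3_of_eq (a c : ι) : ¬ D3 a a c := fun h => h.1 rfl

/-- relabelling a sum over triples of distinct indices: swap of the first two -/
theorem S3_swap (F : ι → ι → ι → ℝ) :
    ∑ i, ∑ j, ∑ l, (if D3 i j l then F j i l else 0)
      = ∑ i, ∑ j, ∑ l, (if D3 i j l then F i j l else 0) := by
  rw [Finset.sum_comm]
  refine Finset.sum_congr rfl (fun a _ => Finset.sum_congr rfl (fun b _ =>
    Finset.sum_congr rfl (fun l _ => ?_)))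
  by_cases h : D3 a b l
  · rw [if_pos h, if_pos (D3_swap.mpr h)]
  · rw [if_neg h, if_neg (fun h' => h (D3_swap.mp h'))]

/-- relabelling a sum over triples of distinct indices: cyclic shift -/
theorem S3_cyc (F : ι → ι → ι → ℝ) :
    ∑ i, ∑ j, ∑ l, (if D3 i j l then F l i j else 0)
      = ∑ i, ∑ j, ∑ l, (if D3 i j l then F i j l else 0) := by
  have e1 : ∑ i, ∑ j, ∑ l, (if D3 i j l then F l i j else 0)
      = ∑ l, ∑ i, ∑ j, (if D3 i j l then F l i j else 0) := by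
    rw [Finset.sum_congr rfl (fun i _ => Finset.sum_comm)]
    exact Finset.sum_comm
  rw [e1]
  refine Finset.sum_congr rfl (fun a _ => Finset.sum_congr rfl (fun b _ =>
    Finset.sum_congr rfl (fun c _ => ?_)))
  by_cases h : D3 a b c
  · rw [if_pos h, if_pos (D3_cyc.mpr h)]
  · rw [if_neg h, if_neg (fun h' => h (D3_cyc.mp h'))]

theorem comm4 (G : ι → ι → ι → ι → ℝ) :
    ∑ u, ∑ v, ∑ w, ∑ z, G u v w z = ∑ w, ∑ z, ∑ u, ∑ v, G u v w z := by
  calc ∑ u, ∑ v, ∑ w, ∑ z, G u v w z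
      = ∑ u, ∑ w, ∑ v, ∑ z, G u v w z := Finset.sum_congr rfl (fun u _ => Finset.sum_comm)
    _ = ∑ w, ∑ u, ∑ v, ∑ z, G u v w z := Finset.sum_comm
    _ = ∑ w, ∑ u, ∑ z, ∑ v, G u v w z :=
        Finset.sum_congr rfl (fun w _ => Finset.sum_congr rfl (fun u _ => Finset.sum_comm))
    _ = ∑ w, ∑ z, ∑ u, ∑ v, G u v w z := Finset.sum_congr rfl (fun w _ => Finset.sum_comm)

/-- relabelling a sum over quadruples of distinct indices: exchange of the two pairs -/
theorem S4_swap (F : ι → ι → ι → ι → ℝ) :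
    ∑ u, ∑ v, ∑ w, ∑ z, (if D4 u v w z then F w z u v else 0)
      = ∑ u, ∑ v, ∑ w, ∑ z, (if D4 u v w z then F u v w z else 0) := by
  rw [comm4]
  refine Finset.sum_congr rfl (fun a _ => Finset.sum_congr rfl (fun b _ =>
    Finset.sum_congr rfl (fun c _ => Finset.sum_congr rfl (fun d _ => ?_))))
  by_cases h : D4 a b c d
  · rw [if_pos h, if_pos (D4_swap.mpr h)]
  · rw [if_neg h, if_neg (fun h' => h (D4_swap.mp h'))]

/-- The real-number core, first half: expansion of the squared norm over ordered pairs of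
ordered pairs; the pairs sharing one index are handled by the triangle inequality, and the
disjoint ones are kept as a hypothesis. -/
theorem sum_core_D (t : ι → ι → ι → ι → ℝ) (ℓ : ι → ι → ℝ)
    (ht1 : ∀ i j k l, t i j k l = t j i k l) (ht2 : ∀ i j k l, t i j k l = t i j l k)
    (hdiag : ∀ i j, i ≠ j → t i j i j = ℓ i j)
    (htri : ∀ i j l, D3 i j l → 0 ≤ t i j i l + t i j j l + t i l j l)
    (hD : 2 * ∑ i, ∑ j, (if i ≠ j then ℓ i j else 0)
      ≤ ∑ i, ∑ j, ∑ k, ∑ l, (if D4 i j k l then t i j k l else 0)) :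
    4 * ∑ i, ∑ j, (if i ≠ j then ℓ i j else 0)
      ≤ ∑ i, ∑ j, (if i ≠ j then ∑ k, ∑ l, (if k ≠ l then t i j k l else 0) else 0) := by
  obtain ⟨LL, hLL⟩ : ∃ s : ℝ, s = ∑ i, ∑ j, (if i ≠ j then ℓ i j else 0) := ⟨_, rfl⟩
  obtain ⟨Sa, hSa⟩ : ∃ s : ℝ, s = ∑ i, ∑ j, ∑ l, (if D3 i j l then t i j i l else 0) :=
    ⟨_, rfl⟩
  obtain ⟨DD, hDD⟩ : ∃ s : ℝ, s = ∑ i, ∑ j, ∑ k, ∑ l, (if D4 i j k l then t i j k l else 0) :=
    ⟨_, rfl⟩
  rw [← hLL, ← hDD] at hD
  rw [← hLL]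
  -- expansion
  have hexp : ∑ i, ∑ j, (if i ≠ j then ∑ k, ∑ l, (if k ≠ l then t i j k l else 0) else 0)
      = 2 * LL + 4 * Sa + DD := by
    have h1 : ∀ i j : ι, (if i ≠ j then ∑ k, ∑ l, (if k ≠ l then t i j k l else 0) else 0)
        = 2 * (if i ≠ j then ℓ i j else 0)
          + (2 * ∑ l, (if D3 i j l then t i j i l else 0)
            + 2 * ∑ l, (if D3 i j l then t j i j l else 0))
          + ∑ k, ∑ l, (if D4 i j k l then t i j k l else 0) := by
      intro i j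
      by_cases hij : i ≠ j
      · rw [if_pos hij, if_pos hij, split_inner i j hij (fun k l => t i j k l)]
        have e : ∑ l, (if D3 i j l then t i j i l + t i j j l + t i j l i + t i j l j else 0)
            = 2 * ∑ l, (if D3 i j l then t i j i l else 0)
              + 2 * ∑ l, (if D3 i j l then t j i j l else 0) := by
          rw [Finset.mul_sum, Finset.mul_sum, ← Finset.sum_add_distrib]
          refine Finset.sum_congr rfl (fun l _ => ?_)
          by_cases h : D3 i j l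
          · rw [if_pos h, if_pos h, if_pos h, ← ht2 i j i l, ← ht2 i j j l, ← ht1 i j j l]
            ring
          · rw [if_neg h, if_neg h, if_neg h]
            ring
        rw [e, ← ht2 i j i j, hdiag i j hij]
        ring
      · have hij' : i = j := not_not.mp hij
        subst hij'
        rw [if_neg hij, if_neg hij]
        simp [D3_of_eq, D4_of_eq]
    simp only [h1, Finset.sum_add_distrib, ← Finset.mul_sum]
    rw [S3_swap (fun i j l => t i j i l), hLL, hSa, hDD]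
    ring
  -- the triangle part
  have hSa0 : 0 ≤ Sa := by
    have h3 : 0 ≤ ∑ i, ∑ j, ∑ l, (if D3 i j l then t i j i l + t i j j l + t i l j l else 0) := by
      refine Finset.sum_nonneg (fun i _ => Finset.sum_nonneg (fun j _ =>
        Finset.sum_nonneg (fun l _ => ?_)))
      by_cases h : D3 i j l
      · rw [if_pos h]
        exact htri i j l h
      · rw [if_neg h]
    have h4 : ∑ i, ∑ j, ∑ l, (if D3 i j l then t i j i l + t i j j l + t i l j l else 0)
        = Sa + ∑ i, ∑ j, ∑ l, (if D3 i j l then t j i j l else 0)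
          + ∑ i, ∑ j, ∑ l, (if D3 i j l then t l i l j else 0) := by
      simp only [hSa, ← Finset.sum_add_distrib]
      refine Finset.sum_congr rfl (fun i _ => Finset.sum_congr rfl (fun j _ =>
        Finset.sum_congr rfl (fun l _ => ?_)))
      by_cases h : D3 i j l
      · rw [if_pos h, if_pos h, if_pos h, if_pos h, ← ht1 i j j l, ht1 i l j l, ht2 l i j l]
      · rw [if_neg h, if_neg h, if_neg h, if_neg h]
        ring
    rw [h4, S3_swap (fun i j l => t i j i l), S3_cyc (fun i j l => t i j i l)] at h3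
    linarith
  rw [hexp]
  linarith

/-- The real-number core, second half: the per-pair bound `hA` and the per-edge bound `hB`
give the bound on the sum over disjoint pairs of pairs. -/
theorem sum_AB (t : ι → ι → ι → ι → ℝ) (ℓ : ι → ι → ℝ) (qb c : ι → ι → ι → ι → ℝ)
    (hA : ∀ u v w z, D4 u v w z → 2 * qb u v w z - c u v w z - c w z u v ≤ 2 * t u v w z)
    (hB : ∀ u v, u ≠ v → ∑ w, ∑ z, (if D4 u v w z then c u v w z else 0)
      ≤ ∑ w, ∑ z, (if D4 u v w z then qb u v w z else 0) - 2 * ℓ u v) :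
    2 * ∑ i, ∑ j, (if i ≠ j then ℓ i j else 0)
      ≤ ∑ i, ∑ j, ∑ k, ∑ l, (if D4 i j k l then t i j k l else 0) := by
  obtain ⟨LL, hLL⟩ : ∃ s : ℝ, s = ∑ i, ∑ j, (if i ≠ j then ℓ i j else 0) := ⟨_, rfl⟩
  obtain ⟨DD, hDD⟩ : ∃ s : ℝ, s = ∑ i, ∑ j, ∑ k, ∑ l, (if D4 i j k l then t i j k l else 0) :=
    ⟨_, rfl⟩
  obtain ⟨SQ, hSQ⟩ : ∃ s : ℝ, s = ∑ i, ∑ j, ∑ k, ∑ l, (if D4 i j k l then qb i j k l else 0) :=
    ⟨_, rfl⟩
  obtain ⟨SC, hSC⟩ : ∃ s : ℝ, s = ∑ i, ∑ j, ∑ k, ∑ l, (if D4 i j k l then c i j k l else 0) :=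
    ⟨_, rfl⟩
  rw [← hLL, ← hDD]
  -- the disjoint part
  have e2 : ∑ i, ∑ j, ∑ k, ∑ l, (if D4 i j k l then c k l i j else 0) = SC :=
    (S4_swap (fun i j k l => c i j k l)).trans hSC.symm
  have e3 : ∑ i, ∑ j, ∑ k, ∑ l,
      (if D4 i j k l then 2 * qb i j k l - c i j k l - c k l i j else 0)
        = 2 * SQ - SC - SC := by
    have e4 : ∑ i, ∑ j, ∑ k, ∑ l,
        (if D4 i j k l then 2 * qb i j k l - c i j k l - c k l i j else 0)
        = 2 * (∑ i, ∑ j, ∑ k, ∑ l, (if D4 i j k l then qb i j k l else 0))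
          - (∑ i, ∑ j, ∑ k, ∑ l, (if D4 i j k l then c i j k l else 0))
          - ∑ i, ∑ j, ∑ k, ∑ l, (if D4 i j k l then c k l i j else 0) := by
      simp only [Finset.mul_sum, ← Finset.sum_sub_distrib]
      refine Finset.sum_congr rfl (fun i _ => Finset.sum_congr rfl (fun j _ =>
        Finset.sum_congr rfl (fun k _ => Finset.sum_congr rfl (fun l _ => ?_))))
      by_cases h : D4 i j k l
      · rw [if_pos h, if_pos h, if_pos h, if_pos h]
      · rw [if_neg h, if_neg h, if_neg h, if_neg h]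
        ring
    rw [e4, e2, ← hSQ, ← hSC]
  have hD1 : 2 * SQ - SC - SC ≤ 2 * DD := by
    have e5 : 2 * DD = ∑ i, ∑ j, ∑ k, ∑ l, (if D4 i j k l then 2 * t i j k l else 0) := by
      rw [hDD]
      simp only [Finset.mul_sum]
      refine Finset.sum_congr rfl (fun i _ => Finset.sum_congr rfl (fun j _ =>
        Finset.sum_congr rfl (fun k _ => Finset.sum_congr rfl (fun l _ => ?_))))
      by_cases h : D4 i j k l
      · rw [if_pos h, if_pos h]
      · rw [if_neg h, if_neg h]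
        ring
    rw [← e3, e5]
    refine Finset.sum_le_sum (fun i _ => Finset.sum_le_sum (fun j _ =>
      Finset.sum_le_sum (fun k _ => Finset.sum_le_sum (fun l _ => ?_))))
    by_cases h : D4 i j k l
    · rw [if_pos h, if_pos h]
      exact hA i j k l h
    · rw [if_neg h, if_neg h]
  have hD2 : SC ≤ SQ - 2 * LL := by
    have e : SQ - 2 * LL = ∑ i, ∑ j, (∑ k, ∑ l, (if D4 i j k l then qb i j k l else 0)
        - 2 * (if i ≠ j then ℓ i j else 0)) := by
      rw [hSQ, hLL]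
      simp only [Finset.sum_sub_distrib, ← Finset.mul_sum]
    rw [e, hSC]
    refine Finset.sum_le_sum (fun i _ => Finset.sum_le_sum (fun j _ => ?_))
    by_cases hij : i ≠ j
    · rw [if_pos hij]
      exact hB i j hij
    · have hij' : i = j := not_not.mp hij
      subst hij'
      simp [D4_of_eq]
  linarith

/-- The real-number core: both halves together. -/
theorem sum_core (t : ι → ι → ι → ι → ℝ) (ℓ : ι → ι → ℝ) (qb c : ι → ι → ι → ι → ℝ)
    (ht1 : ∀ i j k l, t i j k l = t j i k l) (ht2 : ∀ i j k l, t i j k l = t i j l k)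
    (hdiag : ∀ i j, i ≠ j → t i j i j = ℓ i j)
    (htri : ∀ i j l, D3 i j l → 0 ≤ t i j i l + t i j j l + t i l j l)
    (hA : ∀ u v w z, D4 u v w z → 2 * qb u v w z - c u v w z - c w z u v ≤ 2 * t u v w z)
    (hB : ∀ u v, u ≠ v → ∑ w, ∑ z, (if D4 u v w z then c u v w z else 0)
      ≤ ∑ w, ∑ z, (if D4 u v w z then qb u v w z else 0) - 2 * ℓ u v) :
    4 * ∑ i, ∑ j, (if i ≠ j then ℓ i j else 0)
      ≤ ∑ i, ∑ j, (if i ≠ j then ∑ k, ∑ l, (if k ≠ l then t i j k l else 0) else 0) :=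
  sum_core_D t ℓ ht1 ht2 hdiag htri (sum_AB t ℓ qb c hA hB)

end Sums

section Mat

variable {n ι : Type*} [Fintype n] [DecidableEq n] [Fintype ι] [DecidableEq ι]

theorem sum_erase_ite {M : Type*} [AddCommMonoid M] (i : ι) (g : ι → M) :
    ∑ j ∈ univ.erase i, g j = ∑ j, (if i ≠ j then g j else 0) := by
  rw [← Finset.sum_filter]
  refine Finset.sum_congr ?_ (fun _ _ => rfl)
  ext j
  simp [eq_comm]

/-- The squaring step with the sum over disjoint pairs of pairs kept as a hypothesis: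
symmetric idempotents `Q a b`, the triangle inequality for every three indices, and the bound
`hD` on the sum over quadruples of distinct indices. With `A = ∑ a, ∑ b ≠ a, Q a b` (twice the
sum over unordered pairs) the conclusion is `4 ⟨v, A v⟩ ≤ ⟨A v, A v⟩`. -/
theorem gen_caputo_sq (Q : ι → ι → Matrix n n ℝ)
    (hsymm : ∀ a b, Q a b = Q b a)
    (hT : ∀ a b, (Q a b).transpose = Q a b)
    (hidem : ∀ a b, Q a b * Q a b = Q a b)
    (htri : ∀ i j k, i ≠ j → i ≠ k → j ≠ k → ∀ v : n → ℝ,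
      v ⬝ᵥ ((Q i j + Q i k + Q j k) *ᵥ v) ≤
        ((Q i j + Q i k + Q j k) *ᵥ v) ⬝ᵥ ((Q i j + Q i k + Q j k) *ᵥ v))
    (v : n → ℝ)
    (hD : 2 * ∑ a, ∑ b ∈ univ.erase a, v ⬝ᵥ (Q a b *ᵥ v)
      ≤ ∑ a, ∑ b, ∑ c, ∑ d,
          if (a ≠ b ∧ a ≠ c ∧ a ≠ d ∧ b ≠ c ∧ b ≠ d ∧ c ≠ d) then
            (Q a b *ᵥ v) ⬝ᵥ (Q c d *ᵥ v) else 0) :
    4 * (v ⬝ᵥ ((∑ a, ∑ b ∈ univ.erase a, Q a b) *ᵥ v)) ≤
      ((∑ a, ∑ b ∈ univ.erase a, Q a b) *ᵥ v) ⬝ᵥ ((∑ a, ∑ b ∈ univ.erase a, Q a b) *ᵥ v) := by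
  have hdiag : ∀ i j, (Q i j *ᵥ v) ⬝ᵥ (Q i j *ᵥ v) = v ⬝ᵥ (Q i j *ᵥ v) := by
    intro i j
    rw [KTV.CaputoA.mulVec_symm_dot (Q i j) (hT i j), Matrix.mulVec_mulVec, hidem]
  have hAv : (∑ i, ∑ j ∈ univ.erase i, Q i j) *ᵥ v
      = ∑ i, ∑ j, (if i ≠ j then Q i j *ᵥ v else 0) := by
    rw [Matrix.sum_mulVec]
    refine Finset.sum_congr rfl (fun i _ => ?_)
    rw [Matrix.sum_mulVec, sum_erase_ite]
  have hL : v ⬝ᵥ ((∑ i, ∑ j ∈ univ.erase i, Q i j) *ᵥ v)
      = ∑ i, ∑ j, (if i ≠ j then v ⬝ᵥ (Q i j *ᵥ v) else 0) := by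
    rw [hAv, dotProduct_sum]
    refine Finset.sum_congr rfl (fun i _ => ?_)
    rw [dotProduct_sum]
    refine Finset.sum_congr rfl (fun j _ => ?_)
    split_ifs
    · rfl
    · simp
  have hR : ((∑ i, ∑ j ∈ univ.erase i, Q i j) *ᵥ v) ⬝ᵥ ((∑ i, ∑ j ∈ univ.erase i, Q i j) *ᵥ v)
      = ∑ i, ∑ j, (if i ≠ j then ∑ k, ∑ l,
          (if k ≠ l then (Q i j *ᵥ v) ⬝ᵥ (Q k l *ᵥ v) else 0) else 0) := by
    rw [hAv, sum_dotProduct]
    refine Finset.sum_congr rfl (fun i _ => ?_)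
    rw [sum_dotProduct]
    refine Finset.sum_congr rfl (fun j _ => ?_)
    by_cases hij : i ≠ j
    · rw [if_pos hij, if_pos hij, dotProduct_sum]
      refine Finset.sum_congr rfl (fun k _ => ?_)
      rw [dotProduct_sum]
      refine Finset.sum_congr rfl (fun l _ => ?_)
      split_ifs
      · rfl
      · simp
    · rw [if_neg hij, if_neg hij]
      simp
  have hD' : 2 * ∑ i, ∑ j, (if i ≠ j then v ⬝ᵥ (Q i j *ᵥ v) else 0)
      ≤ ∑ i, ∑ j, ∑ k, ∑ l, (if D4 i j k l then (Q i j *ᵥ v) ⬝ᵥ (Q k l *ᵥ v) else 0) := by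
    have e : ∑ a, ∑ b ∈ univ.erase a, v ⬝ᵥ (Q a b *ᵥ v)
        = ∑ i, ∑ j, (if i ≠ j then v ⬝ᵥ (Q i j *ᵥ v) else 0) :=
      Finset.sum_congr rfl (fun i _ => sum_erase_ite i _)
    rw [← e]
    exact hD
  rw [hL, hR]
  refine sum_core_D (fun i j k l => (Q i j *ᵥ v) ⬝ᵥ (Q k l *ᵥ v))
    (fun i j => v ⬝ᵥ (Q i j *ᵥ v)) ?_ ?_ ?_ ?_ hD'
  · intro i j k l
    show (Q i j *ᵥ v) ⬝ᵥ (Q k l *ᵥ v) = (Q j i *ᵥ v) ⬝ᵥ (Q k l *ᵥ v)
    rw [hsymm i j]
  · intro i j k l
    show (Q i j *ᵥ v) ⬝ᵥ (Q k l *ᵥ v) = (Q i j *ᵥ v) ⬝ᵥ (Q l k *ᵥ v)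
    rw [hsymm k l]
  · intro i j _
    exact hdiag i j
  · intro i j l h
    have h3 := htri i j l h.1 h.2.1 h.2.2 v
    simp only [Matrix.add_mulVec, dotProduct_add, add_dotProduct] at h3
    have c1 : (Q i l *ᵥ v) ⬝ᵥ (Q i j *ᵥ v) = (Q i j *ᵥ v) ⬝ᵥ (Q i l *ᵥ v) := dotProduct_comm _ _
    have c2 : (Q j l *ᵥ v) ⬝ᵥ (Q i j *ᵥ v) = (Q i j *ᵥ v) ⬝ᵥ (Q j l *ᵥ v) := dotProduct_comm _ _
    have c3 : (Q j l *ᵥ v) ⬝ᵥ (Q i l *ᵥ v) = (Q i l *ᵥ v) ⬝ᵥ (Q j l *ᵥ v) := dotProduct_comm _ _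
    rw [hdiag, hdiag, hdiag, c1, c2, c3] at h3
    show 0 ≤ (Q i j *ᵥ v) ⬝ᵥ (Q i l *ᵥ v) + (Q i j *ᵥ v) ⬝ᵥ (Q j l *ᵥ v)
      + (Q i l *ᵥ v) ⬝ᵥ (Q j l *ᵥ v)
    linarith

/-- The squaring step for general index families: symmetric idempotents `Q i j`, the triangle
inequality for every three indices, block terms `qb` and charges `c` with the per-pair bound
`hA` and the per-edge bound `hB`. With `A = ∑ i, ∑ j ≠ i, Q i j` (twice the sum over unordered
pairs) the conclusion is `4 ⟨v, A v⟩ ≤ ⟨A v, A v⟩`. -/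
theorem gen_sq (Q : ι → ι → Matrix n n ℝ)
    (hsymm : ∀ i j, Q i j = Q j i)
    (hT : ∀ i j, (Q i j).transpose = Q i j)
    (hidem : ∀ i j, Q i j * Q i j = Q i j)
    (htri : ∀ i j k, i ≠ j → i ≠ k → j ≠ k → ∀ v : n → ℝ,
      v ⬝ᵥ ((Q i j + Q i k + Q j k) *ᵥ v) ≤
        ((Q i j + Q i k + Q j k) *ᵥ v) ⬝ᵥ ((Q i j + Q i k + Q j k) *ᵥ v))
    (v : n → ℝ) (qb c : ι → ι → ι → ι → ℝ)
    (hA : ∀ a b x y, D4 a b x y →
      2 * qb a b x y - c a b x y - c x y a b ≤ 2 * ((Q a b *ᵥ v) ⬝ᵥ (Q x y *ᵥ v)))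
    (hB : ∀ a b, a ≠ b → ∑ x, ∑ y, (if D4 a b x y then c a b x y else 0)
      ≤ ∑ x, ∑ y, (if D4 a b x y then qb a b x y else 0) - 2 * (v ⬝ᵥ (Q a b *ᵥ v))) :
    4 * (v ⬝ᵥ ((∑ i, ∑ j ∈ univ.erase i, Q i j) *ᵥ v)) ≤
      ((∑ i, ∑ j ∈ univ.erase i, Q i j) *ᵥ v) ⬝ᵥ ((∑ i, ∑ j ∈ univ.erase i, Q i j) *ᵥ v) := by
  refine gen_caputo_sq Q hsymm hT hidem htri v ?_
  have h := sum_AB (fun i j k l => (Q i j *ᵥ v) ⬝ᵥ (Q k l *ᵥ v))
    (fun i j => v ⬝ᵥ (Q i j *ᵥ v)) qb c hA hB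
  have e : ∑ a, ∑ b ∈ univ.erase a, v ⬝ᵥ (Q a b *ᵥ v)
      = ∑ i, ∑ j, (if i ≠ j then v ⬝ᵥ (Q i j *ᵥ v) else 0) :=
    Finset.sum_congr rfl (fun i _ => sum_erase_ite i _)
  rw [e]
  exact h

/-- Gap consequence: under the hypotheses of `gen_sq` (for every vector), the matrix
`A = ∑ i, ∑ j ≠ i, Q i j` dominates `4` on the orthogonal complement of its kernel. -/
theorem gen_gap (Q : ι → ι → Matrix n n ℝ)
    (hsymm : ∀ i j, Q i j = Q j i)
    (hT : ∀ i j, (Q i j).transpose = Q i j)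
    (hidem : ∀ i j, Q i j * Q i j = Q i j)
    (htri : ∀ i j k, i ≠ j → i ≠ k → j ≠ k → ∀ v : n → ℝ,
      v ⬝ᵥ ((Q i j + Q i k + Q j k) *ᵥ v) ≤
        ((Q i j + Q i k + Q j k) *ᵥ v) ⬝ᵥ ((Q i j + Q i k + Q j k) *ᵥ v))
    (qb c : (n → ℝ) → ι → ι → ι → ι → ℝ)
    (hA : ∀ (v : n → ℝ) a b x y, D4 a b x y →
      2 * qb v a b x y - c v a b x y - c v x y a b ≤ 2 * ((Q a b *ᵥ v) ⬝ᵥ (Q x y *ᵥ v)))
    (hB : ∀ (v : n → ℝ) a b, a ≠ b → ∑ x, ∑ y, (if D4 a b x y then c v a b x y else 0)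
      ≤ ∑ x, ∑ y, (if D4 a b x y then qb v a b x y else 0) - 2 * (v ⬝ᵥ (Q a b *ᵥ v)))
    (f : n → ℝ)
    (hf : ∀ g : n → ℝ, (∑ i, ∑ j ∈ univ.erase i, Q i j) *ᵥ g = 0 → f ⬝ᵥ g = 0) :
    4 * (f ⬝ᵥ f) ≤ f ⬝ᵥ ((∑ i, ∑ j ∈ univ.erase i, Q i j) *ᵥ f) := by
  have hAT : (∑ i, ∑ j ∈ univ.erase i, Q i j).transpose = ∑ i, ∑ j ∈ univ.erase i, Q i j := by
    rw [Matrix.transpose_sum]
    refine Finset.sum_congr rfl (fun i _ => ?_)
    rw [Matrix.transpose_sum]
    exact Finset.sum_congr rfl (fun j _ => hT i j)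
  have hpos : ∀ v : n → ℝ, 0 ≤ v ⬝ᵥ ((∑ i, ∑ j ∈ univ.erase i, Q i j) *ᵥ v) := by
    intro v
    rw [Matrix.sum_mulVec, dotProduct_sum]
    refine Finset.sum_nonneg (fun i _ => ?_)
    rw [Matrix.sum_mulVec, dotProduct_sum]
    exact Finset.sum_nonneg (fun j _ =>
      KTV.CaputoA.dot_mulVec_proj_nonneg (Q i j) (hT i j) (hidem i j) v)
  exact KTV.poincare_of_sq _ hAT 4 (by norm_num) hpos
    (fun v => gen_sq Q hsymm hT hidem htri v (qb v) (c v) (hA v) (hB v)) f hf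

end Mat

end Vale.Agent.Helper19.GenCaputo
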